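import Mathlib
import Crest.Agent.Helper2.SurvProps
import Crest.Agent.Helper8.S0423Conv

set_option autoImplicit false

open MeasureTheory Set
open Crest.Agent.Helper8.S0423Conv

namespace Crest.Agent.Helper2

theorem surv_zero_fun (a : Fin 0 → ℝ) :
    surv 0 a = fun t : ℝ => if t < 0 then (1:ℝ) else 0 :=
  funext (surv_zero a)

theorem surv_succ_fun (n : ℕ) (a : Fin (n+1) → ℝ) :
    surv (n+1) a = econv (a 0) (surv n (Fin.tail a)) := by
  funext t
  rw [surv_succ]
  rfl

theorem surv_fourPoint : ∀ (N : ℕ) (a : Fin N → ℝ), FourPoint (surv N a)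
  | 0, a => by
    rw [surv_zero_fun]
    exact fourPoint_base
  | n+1, a => by
    rw [surv_succ_fun]
    exact fourPoint_econv (a 0) (surv_measurable n _) (surv_nonneg n _) (surv_le_one n _)
      (surv_fourPoint n (Fin.tail a))

theorem surv_logconcave (N : ℕ) (a : Fin N → ℝ) (x y : ℝ) :
    surv N a x * surv N a y ≤ surv N a ((x + y) / 2) ^ 2 :=
  midpoint_of_fourPoint (surv_fourPoint N a) x y

theorem surv_continuous : ∀ (N : ℕ) (a : Fin N → ℝ), (∃ i, a i ≠ 0) → Continuous (surv N a)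
  | 0, _, h => by
    obtain ⟨i, _⟩ := h
    exact i.elim0
  | n+1, a, h => by
    rw [surv_succ_fun]
    by_cases h0 : a 0 = 0
    · rw [h0, econv_zero]
      apply surv_continuous n
      obtain ⟨i, hi⟩ := h
      rcases Fin.eq_zero_or_eq_succ i with rfl | ⟨j, rfl⟩
      · exact absurd h0 hi
      · exact ⟨j, hi⟩
    · exact continuous_econv h0 (surv_measurable n _) (surv_nonneg n _) (surv_le_one n _)

theorem exists_pos_of_sum_zero (N : ℕ) (a : Fin N → ℝ) (hs : ∑ i, a i = 0) (hne : a ≠ 0) :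
    ∃ i, 0 < a i := by
  by_contra hcon
  have hle : ∀ i, a i ≤ 0 := fun i => not_lt.mp (fun h => hcon ⟨i, h⟩)
  have h0 : ∀ i ∈ Finset.univ, a i = 0 :=
    (Finset.sum_eq_zero_iff_of_nonpos (fun i _ => hle i)).1 hs
  exact hne (funext fun i => h0 i (Finset.mem_univ i))

/-- All hypotheses of the abstract one-dimensional comparison theorem hold for the survival
function of a nonzero sum-zero combination. -/
theorem surv_good (N : ℕ) (a : Fin N → ℝ) (hs : ∑ i, a i = 0) (hne : a ≠ 0) :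
    (∀ t, 0 < surv N a t) ∧ (∀ t, surv N a t ≤ 1) ∧ Antitone (surv N a) ∧
    Continuous (surv N a) ∧
    (∀ x y, surv N a x * surv N a y ≤ surv N a ((x + y) / 2) ^ 2) ∧
    IntegrableOn (surv N a) (Set.Ioi 0) ∧ IntegrableOn (fun t => 1 - surv N a t) (Set.Iic 0) ∧
    ∫ t in Set.Ioi 0, surv N a t = ∫ t in Set.Iic 0, (1 - surv N a t) := by
  obtain ⟨i, hi⟩ := exists_pos_of_sum_zero N a hs hne
  refine ⟨surv_pos N a ⟨i, hi⟩, surv_le_one N a, surv_antitone N a,
    surv_continuous N a ⟨i, hi.ne'⟩, surv_logconcave N a, surv_integrableOn_Ioi N a,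
    one_sub_surv_integrableOn_Iic N a, ?_⟩
  have h := surv_mean N a
  rw [hs] at h
  linarith

theorem numeric_aux : (7:ℝ) / 4 ≤ 3 / 4 * Real.exp (4 / 3) - Real.exp 1 / 3 := by
  have h1 : Real.exp (4/3) = Real.exp 1 * Real.exp (1/3) := by
    rw [← Real.exp_add]
    norm_num
  have h2 : (25:ℝ)/18 ≤ Real.exp (1/3) := by
    have := Real.quadratic_le_exp_of_nonneg (show (0:ℝ) ≤ 1/3 by norm_num)
    norm_num at this ⊢
    linarith
  have h3 : (2.7182818283 : ℝ) < Real.exp 1 := Real.exp_one_gt_d9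
  rw [h1]
  have h4 : Real.exp 1 * (25/18) ≤ Real.exp 1 * Real.exp (1/3) :=
    mul_le_mul_of_nonneg_left h2 (Real.exp_nonneg 1)
  norm_num at h3
  nlinarith

/-- The upper-bound half of `S0423`, given the abstract one-dimensional bound. -/
theorem upper_bound_of_abstract
    (habs : ∀ S : ℝ → ℝ, (∀ t, 0 < S t) → (∀ t, S t ≤ 1) → Antitone S → Continuous S →
      (∀ x y, S x * S y ≤ S ((x + y) / 2) ^ 2) →
      IntegrableOn S (Set.Ioi 0) → IntegrableOn (fun t => 1 - S t) (Set.Iic 0) →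
      ∫ t in Set.Ioi 0, S t = ∫ t in Set.Iic 0, (1 - S t) →
      4 / 9 * Real.exp (-(1/3)) ≤ ∫ t, S t * kern t)
    (N : ℕ) (a : Fin N → ℝ) (hs : ∑ i, a i = 0) :
    Real.exp (4 / 3) / (4 / 3) *
          ∫ x in Set.pi Set.univ (fun _ : Fin N => Set.Ioi (0 : ℝ)),
            Crest.AlgGeometry.truncExpWeight (4 / 3 + ∑ i, a i * x i) * Real.exp (-∑ i, x i)
        ≤ 3 / 4 * Real.exp (4 / 3) - Real.exp 1 / 3 := by
  by_cases hne : a = 0
  · subst hne
    have h1 : ∀ x : Fin N → ℝ,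
        Crest.AlgGeometry.truncExpWeight (4 / 3 + ∑ i, (0 : Fin N → ℝ) i * x i)
          * Real.exp (-∑ i, x i)
        = ((1 + 4/3) * Real.exp (-(4/3))) * Real.exp (-∑ i, x i) := by
      intro x
      simp only [Pi.zero_apply, zero_mul, Finset.sum_const_zero, add_zero]
      unfold Crest.AlgGeometry.truncExpWeight
      rw [if_neg (by norm_num)]
    simp_rw [h1]
    rw [restrict_orthant, integral_const_mul, integral_exp_orthant, mul_one]
    have h2 : Real.exp (4/3) * Real.exp (-(4/3)) = 1 := by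
      rw [← Real.exp_add]
      simp
    have h3 : Real.exp (4 / 3) / (4 / 3) * ((1 + 4 / 3) * Real.exp (-(4 / 3))) = 7/4 := by
      have : Real.exp (4 / 3) / (4 / 3) * ((1 + 4 / 3) * Real.exp (-(4 / 3)))
          = (Real.exp (4/3) * Real.exp (-(4/3))) * (7/4) := by ring
      rw [this, h2]
      ring
    rw [h3]
    exact numeric_aux
  · obtain ⟨h1, h2, h3, h4, h5, h6, h7, h8⟩ := surv_good N a hs hne
    have hb := habs (surv N a) h1 h2 h3 h4 h5 h6 h7 h8
    rw [integral_trunc_eq]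
    have he : Real.exp (4/3) * Real.exp (-(1/3)) = Real.exp 1 := by
      rw [← Real.exp_add]
      norm_num
    have hpos : 0 < Real.exp (4/3) / (4/3) := by positivity
    calc Real.exp (4 / 3) / (4 / 3) * (1 - ∫ t, surv N a t * kern t)
        ≤ Real.exp (4 / 3) / (4 / 3) * (1 - 4 / 9 * Real.exp (-(1/3))) :=
          mul_le_mul_of_nonneg_left (by linarith) hpos.le
      _ = 3 / 4 * Real.exp (4 / 3) - (Real.exp (4/3) * Real.exp (-(1/3))) / 3 := by ring
      _ = 3 / 4 * Real.exp (4 / 3) - Real.exp 1 / 3 := by rw [he]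

end Crest.Agent.Helper2
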