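import Mathlib
import Crest.Agent.Helper2.SurvGood
import Crest.Agent.Lead.Compare

set_option autoImplicit false

open MeasureTheory Set

namespace Crest.Agent.Helper2

theorem integrable_ind_le_mul (N : ℕ) (a : Fin N → ℝ) (t : ℝ) :
    Integrable (fun x : Fin N → ℝ =>
        (if ∑ i, a i * x i ≤ t then (1:ℝ) else 0) * Real.exp (-∑ i, x i)) (orthM N) := by
  refine ((integrable_exp_orthant N).sub (integrable_ind_mul N a t)).congr
    (Filter.Eventually.of_forall (fun x => ?_))
  simp only [Pi.sub_apply]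
  by_cases h : t < ∑ i, a i * x i
  · rw [if_pos h, if_neg (not_le.mpr h)]
    ring
  · rw [if_neg h, if_pos (not_lt.mp h)]
    ring

theorem surv_lt_one (N : ℕ) (a : Fin N → ℝ) (h : ∃ i, a i < 0) (t : ℝ) : surv N a t < 1 := by
  have hpos := surv_pos N (fun i => -a i)
    (by obtain ⟨i, hi⟩ := h; exact ⟨i, by linarith⟩) (-t)
  have hle : surv N (fun i => -a i) (-t) ≤ 1 - surv N a t := by
    rw [one_sub_surv_eq, surv_eq]
    refine integral_mono (integrable_ind_mul N _ _) (integrable_ind_le_mul N a t) (fun x => ?_)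
    have he := Real.exp_nonneg (-∑ i, x i)
    have e : ∑ i, (-a i) * x i = -∑ i, a i * x i := by
      rw [← Finset.sum_neg_distrib]
      exact Finset.sum_congr rfl (fun i _ => by ring)
    simp only
    by_cases h1 : -t < ∑ i, (-a i) * x i
    · rw [if_pos h1, if_pos (by rw [e] at h1; linarith)]
    · rw [if_neg h1]
      split_ifs
      · simpa using he
      · simp
  linarith

theorem exists_neg_of_sum_zero (N : ℕ) (a : Fin N → ℝ) (hs : ∑ i, a i = 0) (hne : a ≠ 0) :
    ∃ i, a i < 0 := by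
  have hs' : ∑ i, (fun i => -a i) i = 0 := by
    simp only [Finset.sum_neg_distrib, hs, neg_zero]
  have hne' : (fun i => -a i) ≠ 0 := by
    intro h0
    apply hne
    funext i
    have := congrFun h0 i
    simp only [Pi.zero_apply] at this ⊢
    linarith
  obtain ⟨i, hi⟩ := exists_pos_of_sum_zero N (fun i => -a i) hs' hne'
  exact ⟨i, by linarith⟩

theorem kern_eq_lead : kern = Crest.Agent.Lead.kern := funext fun _ => rfl

/-- The degenerate case `a = 0` of the upper bound. -/
theorem upper_bound_zero (N : ℕ) :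
    Real.exp (4 / 3) / (4 / 3) *
          ∫ x in Set.pi Set.univ (fun _ : Fin N => Set.Ioi (0 : ℝ)),
            Crest.AlgGeometry.truncExpWeight (4 / 3 + ∑ i, (0 : Fin N → ℝ) i * x i)
              * Real.exp (-∑ i, x i)
        ≤ 3 / 4 * Real.exp (4 / 3) - Real.exp 1 / 3 := by
  have h1 : ∀ x : Fin N → ℝ,
      Crest.AlgGeometry.truncExpWeight (4 / 3 + ∑ i, (0 : Fin N → ℝ) i * x i)
        * Real.exp (-∑ i, x i)
      = ((1 + 4/3) * Real.exp (-(4/3))) * Real.exp (-∑ i, x i) := by
    intro x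
    simp only [Pi.zero_apply, zero_mul, Finset.sum_const_zero, add_zero]
    unfold Crest.AlgGeometry.truncExpWeight
    rw [if_neg (by norm_num)]
  simp_rw [h1]
  rw [restrict_orthant, integral_const_mul, integral_exp_orthant, mul_one]
  have h2 : Real.exp (4/3) * Real.exp (-(4/3)) = 1 := by
    rw [← Real.exp_add]
    simp
  have h3 : Real.exp (4 / 3) / (4 / 3) * ((1 + 4 / 3) * Real.exp (-(4 / 3))) = 7/4 := by
    have : Real.exp (4 / 3) / (4 / 3) * ((1 + 4 / 3) * Real.exp (-(4 / 3)))
        = (Real.exp (4/3) * Real.exp (-(4/3))) * (7/4) := by ring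
    rw [this, h2]
    ring
  rw [h3]
  exact numeric_aux

/-- The upper-bound half of `S0423`. -/
theorem upper_bound (N : ℕ) (a : Fin N → ℝ) (hs : ∑ i, a i = 0) :
    Real.exp (4 / 3) / (4 / 3) *
          ∫ x in Set.pi Set.univ (fun _ : Fin N => Set.Ioi (0 : ℝ)),
            Crest.AlgGeometry.truncExpWeight (4 / 3 + ∑ i, a i * x i) * Real.exp (-∑ i, x i)
        ≤ 3 / 4 * Real.exp (4 / 3) - Real.exp 1 / 3 := by
  by_cases hne : a = 0
  · subst hne
    exact upper_bound_zero N
  · obtain ⟨h1, _, _, h4, h5, h6, h7, h8⟩ := surv_good N a hs hne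
    have hlt := surv_lt_one N a (exists_neg_of_sum_zero N a hs hne)
    have hb := Crest.Agent.Lead.abstract_bound (surv N a) h1 hlt h4 h5 h6 h7 h8
    rw [← kern_eq_lead] at hb
    rw [integral_trunc_eq]
    have he : Real.exp (4/3) * Real.exp (-(1/3)) = Real.exp 1 := by
      rw [← Real.exp_add]
      norm_num
    have hpos : 0 < Real.exp (4/3) / (4/3) := by positivity
    calc Real.exp (4 / 3) / (4 / 3) * (1 - ∫ t, surv N a t * kern t)
        ≤ Real.exp (4 / 3) / (4 / 3) * (1 - 4 / 9 * Real.exp (-(1/3))) :=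
          mul_le_mul_of_nonneg_left (by linarith) hpos.le
      _ = 3 / 4 * Real.exp (4 / 3) - (Real.exp (4/3) * Real.exp (-(1/3))) / 3 := by ring
      _ = 3 / 4 * Real.exp (4 / 3) - Real.exp 1 / 3 := by rw [he]

end Crest.Agent.Helper2
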